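import Vale.Agent.Helper16.KTVG.Defs
import Vale.Agent.Helper16.KTV.CondExp

/-!
# Switch chain on general graphs (problem P335): module statements

Each `def …Stmt : Prop` below is the exact statement one module has to prove
(as `theorem … : KTVG.…Stmt n d`).  The assembly is proved against these.
-/

namespace KTVG

open Finset Vale.Agent.Helper13.Switch
open Classical

variable {n : ℕ}

/-- four distinct vertices -/
def D4 (u v w z : Fin n) : Prop := u ≠ v ∧ u ≠ w ∧ u ≠ z ∧ v ≠ w ∧ v ≠ z ∧ w ≠ z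

/-- two labels with the same classes on `Ω` give the same conditional expectation -/
theorem cexpL_congr_lab {X Λ Λ' : Type*} (Ω : Finset X) (lab : X → Λ) (lab' : X → Λ')
    (h : ∀ x ∈ Ω, ∀ y ∈ Ω, lab x = lab y ↔ lab' x = lab' y) (f : X → ℝ) {x : X} (hx : x ∈ Ω) :
    KTV.cexpL Ω lab f x = KTV.cexpL Ω lab' f x := by
  have hfil : Ω.filter (fun y => lab y = lab x) = Ω.filter (fun y => lab' y = lab' x) := by
    ext y
    simp only [Finset.mem_filter]
    constructor
    · rintro ⟨hy, e⟩; exact ⟨hy, (h y hy x hx).1 e⟩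
    · rintro ⟨hy, e⟩; exact ⟨hy, (h y hy x hx).2 e⟩
  unfold KTV.cexpL
  rw [hfil]

theorem slotLab_eq_iff (R : Fin n → Fin n → Prop) (G G' : SimpleGraph (Fin n)) :
    slotLab R G = slotLab R G' ↔ ∀ x y, ¬ R x y → (G.Adj x y ↔ G'.Adj x y) := by
  constructor
  · intro h x y hxy
    have := congrFun (congrFun h x) y
    simp only [slotLab, hxy, not_false_eq_true, true_and, eq_iff_iff] at this
    exact this
  · intro h
    funext x y
    simp only [slotLab, eq_iff_iff]
    constructor
    · rintro ⟨h1, h2⟩; exact ⟨h1, (h x y h1).1 h2⟩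
    · rintro ⟨h1, h2⟩; exact ⟨h1, (h x y h1).2 h2⟩

theorem mem_gOmega {d : Fin n → ℕ} {G : SimpleGraph (Fin n)} :
    G ∈ gOmega n d ↔ ∀ i, G.degree i = d i := by
  simp [gOmega]

theorem labP_comm (u v : Fin n) : labP u v = labP v u := by
  unfold labP
  rw [Finset.pair_comm]

/-! ## Module statements -/

/-- **M2 (triangle).**  For three distinct vertices the three pair projections
`Q = 1 - E[· | G - pair]` satisfy `⟨f, A f⟩ ≤ ‖A f‖²` for `A = Q_uv + Q_uw + Q_vw`
(this is the output shape of `KTV.tri_abstract` with `lT = labOffV {u,v,w}`). -/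
def TriStmt (n : ℕ) (d : Fin n → ℕ) : Prop :=
  ∀ u v w : Fin n, u ≠ v → u ≠ w → v ≠ w → ∀ f : SimpleGraph (Fin n) → ℝ,
    ∑ G ∈ gOmega n d, f G * (3 * f G - KTV.cexpL (gOmega n d) (labP u v) f G
        - KTV.cexpL (gOmega n d) (labP u w) f G - KTV.cexpL (gOmega n d) (labP v w) f G)
      ≤ ∑ G ∈ gOmega n d, (3 * f G - KTV.cexpL (gOmega n d) (labP u v) f G
        - KTV.cexpL (gOmega n d) (labP u w) f G - KTV.cexpL (gOmega n d) (labP v w) f G) ^ 2

/-- **M3 (two disjoint pairs).** -/
def PairStmt (n : ℕ) (d : Fin n → ℕ) : Prop :=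
  ∀ u v w z : Fin n, D4 u v w z → ∀ f : SimpleGraph (Fin n) → ℝ,
    (1 / 2 : ℝ) * swD (gOmega n d) u v w z f - charge (gOmega n d) u v w z f
        - charge (gOmega n d) w z u v f
      ≤ 2 * crossE (gOmega n d) u v w z f

/-- **M4 + M7 (Johnson inequality on the fibres of a pair).** -/
def JohnsonStmt (n : ℕ) (d : Fin n → ℕ) : Prop :=
  ∀ u v : Fin n, u ≠ v → ∀ f : SimpleGraph (Fin n) → ℝ,
    (∑ w, ∑ z, if D4 u v w z then charge (gOmega n d) u v w z f else 0)
      ≤ (1 / 4 : ℝ) * (∑ w, ∑ z, if D4 u v w z then swD (gOmega n d) u v w z f else 0)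
        - 2 * pairE (gOmega n d) u v f

/-- **M5 (kernel).**  A function fixed by all pair projections is constant. -/
def KerStmt (n : ℕ) (d : Fin n → ℕ) : Prop :=
  ∀ f : SimpleGraph (Fin n) → ℝ,
    (∀ u v : Fin n, u ≠ v → ∀ G ∈ gOmega n d, f G = KTV.cexpL (gOmega n d) (labP u v) f G) →
    ∀ G ∈ gOmega n d, ∀ G' ∈ gOmega n d, f G = f G'

/-- **M8 (count).**  Every ordered switch pair `(G, G')` is the block switch of at most
eight ordered 4-tuples `(u,v,w,z)`, and block switches are switches. -/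
def CountStmt (n : ℕ) (d : Fin n → ℕ) : Prop :=
  ∀ G ∈ gOmega n d, ∀ G' ∈ gOmega n d,
    (∑ u : Fin n, ∑ v : Fin n, ∑ w : Fin n, ∑ z : Fin n,
        if D4 u v w z ∧ SwBrel u v w z G G' then (1 : ℝ) else 0)
      ≤ if IsSwitch G G' then 8 else 0

/-- **Target.**  Poincaré inequality with constant `4` for the ordered switch energy
(each unordered switch pair counted twice): the switch graph on the realizations of `d`
has spectral gap at least `2`. -/
def GapStmt (n : ℕ) (d : Fin n → ℕ) : Prop :=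
  ∀ f : SimpleGraph (Fin n) → ℝ,
    4 * KTV.sqDev (gOmega n d) f ≤ KTV.dirichlet (gOmega n d) IsSwitch f

/-! ## Sub-statements of M3 (concrete facts about the five heat baths) -/

/-- the parity event: an odd number of edges between `{u,v}` and `{w,z}` -/
def OddB (u v w z : Fin n) (G : SimpleGraph (Fin n)) : Prop := Odd (yB u v w z G)

/-- the event `w` and `z` each see both or none of `u`, `v` -/
def ColEven (u v w z : Fin n) (G : SimpleGraph (Fin n)) : Prop :=
  (G.Adj u w ↔ G.Adj v w) ∧ (G.Adj u z ↔ G.Adj v z)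

/-- **M3b-i.**  On the parity event the two pair heat baths commute, and the parity
event is a union of fibres of `labP u v` (by symmetry also of `labP w z`). -/
def OddStmt (n : ℕ) (d : Fin n → ℕ) : Prop :=
  ∀ u v w z : Fin n, D4 u v w z →
    (∀ G ∈ gOmega n d, ∀ G' ∈ gOmega n d, labP u v G = labP u v G' →
      (OddB u v w z G ↔ OddB u v w z G')) ∧
    (∀ f : SimpleGraph (Fin n) → ℝ, ∀ G ∈ gOmega n d, OddB u v w z G →
      KTV.cexpL (gOmega n d) (labP u v) (KTV.cexpL (gOmega n d) (labP w z) f) G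
        = KTV.cexpL (gOmega n d) (labP w z) (KTV.cexpL (gOmega n d) (labP u v) f) G)

/-- **M3b-ii.**  Where `w` and `z` each see both or none of `u`, `v`, the fibre of the
pair `{u,v}` is the fibre of its outer slots: the pair heat bath equals the outer one. -/
def ColEvenStmt (n : ℕ) (d : Fin n → ℕ) : Prop :=
  ∀ u v w z : Fin n, D4 u v w z → ∀ f : SimpleGraph (Fin n) → ℝ,
    ∀ G ∈ gOmega n d, ColEven u v w z G →
      KTV.cexpL (gOmega n d) (labP u v) f G = KTV.cexpL (gOmega n d) (labT u v w z) f G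

/-- **M3b-iii.**  The block heat bath: (a) its energy is a quarter of the block switch
energy; (b) on the graphs with an alternating 4-cycle, block-then-outer averaging is the
average over the part of the pair fibre with an alternating 4-cycle. -/
def BlockStmt (n : ℕ) (d : Fin n → ℕ) : Prop :=
  ∀ u v w z : Fin n, D4 u v w z → ∀ f : SimpleGraph (Fin n) → ℝ,
    (∑ G ∈ gOmega n d, (f G - KTV.cexpL (gOmega n d) (labB u v w z) f G) ^ 2
        = (1 / 4 : ℝ) * swD (gOmega n d) u v w z f) ∧
    (∀ G ∈ gOmega n d, SwB u v w z G →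
      KTV.cexpL (gOmega n d) (labB u v w z) (KTV.cexpL (gOmega n d) (labT u v w z) f) G
        = KTV.cexpL (OmB (gOmega n d) u v w z) (labP u v) f G)

/-- **M1 (slots).**  Heat baths on disjoint slot sets commute. -/
def SlotCommStmt (n : ℕ) (d : Fin n → ℕ) : Prop :=
  ∀ R R' : Fin n → Fin n → Prop, (∀ x y, R x y → R y x) → (∀ x y, R' x y → R' y x) →
    (∀ x y, ¬ (R x y ∧ R' x y)) → ∀ f : SimpleGraph (Fin n) → ℝ, ∀ G ∈ gOmega n d,
      KTV.cexpL (gOmega n d) (slotLab R) (KTV.cexpL (gOmega n d) (slotLab R') f) G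
        = KTV.cexpL (gOmega n d) (slotLab R') (KTV.cexpL (gOmega n d) (slotLab R) f) G

end KTVG
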