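import Vale.Agent.Helper16.KTVG.PairAbs
import Vale.Agent.Helper18.KTV.PairCross
import Vale.Agent.Helper23.KTVG.Slots

/-!
# Two disjoint pairs: assembly of `PairStmt` from the concrete sub-statements
-/

namespace KTVG

namespace Asm16

open Finset KTV Vale.Agent.Helper13.Switch
open Classical

variable {n : ℕ}

theorem slotLab_mono {R R' : Fin n → Fin n → Prop} (h : ∀ a b, R a b → R' a b)
    {G G' : SimpleGraph (Fin n)} (e : slotLab R G = slotLab R G') :
    slotLab R' G = slotLab R' G' := by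
  rw [slotLab_eq_iff] at e ⊢
  intro x y hxy
  exact e x y (fun hR => hxy (h x y hR))

theorem Rinc_symm (S : Finset (Fin n)) (x y : Fin n) : Rinc S x y → Rinc S y x := by
  unfold Rinc; tauto

theorem Rbet_symm (S T : Finset (Fin n)) (x y : Fin n) : Rbet S T x y → Rbet S T y x := by
  unfold Rbet; tauto

theorem Rbet_comm (S T : Finset (Fin n)) : Rbet S T = Rbet T S := by
  funext x y
  unfold Rbet
  exact propext or_comm

theorem labB_swap (u v w z : Fin n) : labB w z u v = labB u v w z := by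
  unfold labB
  rw [Rbet_comm]

theorem adjN_comm (G : SimpleGraph (Fin n)) (x y : Fin n) : adjN G x y = adjN G y x := by
  unfold adjN
  simp only [G.adj_comm x y]

theorem yB_swap (u v w z : Fin n) (G : SimpleGraph (Fin n)) : yB w z u v G = yB u v w z G := by
  unfold yB
  rw [adjN_comm G w u, adjN_comm G w v, adjN_comm G z u, adjN_comm G z v]
  ring

theorem SwB_swap (u v w z : Fin n) (G : SimpleGraph (Fin n)) : SwB w z u v G ↔ SwB u v w z G := by
  unfold SwB
  rw [G.adj_comm w u, G.adj_comm z v, G.adj_comm w v, G.adj_comm z u]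
  tauto

theorem OmB_swap (Ω : Finset (SimpleGraph (Fin n))) (u v w z : Fin n) :
    OmB Ω w z u v = OmB Ω u v w z := by
  unfold OmB
  exact Finset.filter_congr fun G _ => SwB_swap u v w z G

/-- the cover of all graphs by the four events -/
theorem cover4 (u v w z : Fin n) (G : SimpleGraph (Fin n)) :
    OddB u v w z G ∨ ColEven u v w z G ∨ ColEven w z u v G ∨ SwB u v w z G := by
  unfold OddB yB adjN ColEven SwB
  rw [G.adj_comm w u, G.adj_comm z u, G.adj_comm w v, G.adj_comm z v]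
  by_cases h1 : G.Adj u w <;> by_cases h2 : G.Adj u z <;> by_cases h3 : G.Adj v w <;>
    by_cases h4 : G.Adj v z <;> simp [h1, h2, h3, h4] <;> decide

/-- `SwB` only depends on the four block slots -/
theorem SwB_congr {u v w z : Fin n} {G G' : SimpleGraph (Fin n)}
    (h1 : G.Adj u w ↔ G'.Adj u w) (h2 : G.Adj u z ↔ G'.Adj u z) (h3 : G.Adj v w ↔ G'.Adj v w)
    (h4 : G.Adj v z ↔ G'.Adj v z) : SwB u v w z G ↔ SwB u v w z G' := by
  unfold SwB
  rw [h1, h2, h3, h4]

theorem mem_pair' (a b c : Fin n) : a ∈ ({b, c} : Finset (Fin n)) ↔ (a = b ∨ a = c) := by simp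
theorem mem_out (a u v w z : Fin n) :
    a ∈ (Finset.univ \ ({u, v, w, z} : Finset (Fin n))) ↔ (a ≠ u ∧ a ≠ v ∧ a ≠ w ∧ a ≠ z) := by
  simp

theorem disj_Bt {u v w z : Fin n} (hD : D4 u v w z) (a b : Fin n) :
    ¬ (Rbet ({u, v} : Finset (Fin n)) {w, z} a b ∧
      Rbet ({u, v} : Finset (Fin n)) (Finset.univ \ {u, v, w, z}) a b) := by
  obtain ⟨huv, huw, huz, hvw, hvz, hwz⟩ := hD
  unfold Rbet
  simp only [mem_pair', mem_out]
  grind

theorem disj_Bt' {u v w z : Fin n} (hD : D4 u v w z) (a b : Fin n) :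
    ¬ (Rbet ({u, v} : Finset (Fin n)) {w, z} a b ∧
      Rbet ({w, z} : Finset (Fin n)) (Finset.univ \ {w, z, u, v}) a b) := by
  obtain ⟨huv, huw, huz, hvw, hvz, hwz⟩ := hD
  unfold Rbet
  simp only [mem_pair', mem_out]
  grind

theorem disj_tt' {u v w z : Fin n} (hD : D4 u v w z) (a b : Fin n) :
    ¬ (Rbet ({u, v} : Finset (Fin n)) (Finset.univ \ {u, v, w, z}) a b ∧
      Rbet ({w, z} : Finset (Fin n)) (Finset.univ \ {w, z, u, v}) a b) := by
  obtain ⟨huv, huw, huz, hvw, hvz, hwz⟩ := hD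
  unfold Rbet
  simp only [mem_pair', mem_out]
  grind

theorem disj_et' {u v w z : Fin n} (hD : D4 u v w z) (a b : Fin n) :
    ¬ (Rinc ({u, v} : Finset (Fin n)) a b ∧
      Rbet ({w, z} : Finset (Fin n)) (Finset.univ \ {w, z, u, v}) a b) := by
  obtain ⟨huv, huw, huz, hvw, hvz, hwz⟩ := hD
  unfold Rbet Rinc
  simp only [mem_pair', mem_out]
  grind

theorem out_B {u v w z : Fin n} (hD : D4 u v w z) (a b : Fin n) (ha : a = u ∨ a = v)
    (hb : b = w ∨ b = z) :
    ¬ Rbet ({u, v} : Finset (Fin n)) (Finset.univ \ {u, v, w, z}) a b := by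
  obtain ⟨huv, huw, huz, hvw, hvz, hwz⟩ := hD
  unfold Rbet
  simp only [mem_pair', mem_out]
  grind

theorem out_B' {u v w z : Fin n} (hD : D4 u v w z) (a b : Fin n) (ha : a = u ∨ a = v)
    (hb : b = w ∨ b = z) :
    ¬ Rbet ({w, z} : Finset (Fin n)) (Finset.univ \ {w, z, u, v}) a b := by
  obtain ⟨huv, huw, huz, hvw, hvz, hwz⟩ := hD
  unfold Rbet
  simp only [mem_pair', mem_out]
  grind
theorem disj_e't {u v w z : Fin n} (hD : D4 u v w z) (a b : Fin n) :
    ¬ (Rinc ({w, z} : Finset (Fin n)) a b ∧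
      Rbet ({u, v} : Finset (Fin n)) (Finset.univ \ {u, v, w, z}) a b) := by
  obtain ⟨huv, huw, huz, hvw, hvz, hwz⟩ := hD
  unfold Rbet Rinc
  simp only [mem_pair', mem_out]
  grind

end Asm16

open Finset KTV Vale.Agent.Helper13.Switch Asm16
open Classical

variable {n : ℕ}

section Asm

variable (d : Fin n → ℕ)

/-- the instance of the abstract cross lemma used in the assembly -/
def CrossInst (u v w z : Fin n) : Prop :=
  ∀ ψ : SimpleGraph (Fin n) → ℝ,
    (∀ x ∈ gOmega n d, cexpL (gOmega n d) (labT u v w z) ψ x = ψ x) →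
    (∀ x ∈ gOmega n d, cexpL (gOmega n d) (labT w z u v) ψ x = ψ x) →
    -(1 / 2 : ℝ) * (∑ x ∈ (gOmega n d).filter (SwB u v w z),
          (ψ x - cexpL (gOmega n d) (labP u v) ψ x) ^ 2)
        - (1 / 2 : ℝ) * (∑ x ∈ (gOmega n d).filter (SwB u v w z),
          (ψ x - cexpL (gOmega n d) (labP w z) ψ x) ^ 2)
      ≤ ∑ x ∈ gOmega n d, (ψ x - cexpL (gOmega n d) (labP u v) ψ x)
          * (ψ x - cexpL (gOmega n d) (labP w z) ψ x)

theorem pair_of_parts (hS : SlotCommStmt n d) (hB : BlockStmt n d)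
    (hX : ∀ u v w z : Fin n, D4 u v w z → CrossInst d u v w z) : PairStmt n d := by
  intro u v w z hD f
  have hD' : D4 w z u v := by
    obtain ⟨huv, huw, huz, hvw, hvz, hwz⟩ := hD
    exact ⟨hwz, huw.symm, hvw.symm, huz.symm, hvz.symm, huv⟩
  set Ω := gOmega n d with hΩ
  -- slot inclusions
  have iBe : ∀ a b, Rbet ({u, v} : Finset (Fin n)) {w, z} a b →
      Rinc ({u, v} : Finset (Fin n)) a b := by
    intro a b h; unfold Rbet at h; unfold Rinc; tauto
  have ite : ∀ a b, Rbet ({u, v} : Finset (Fin n)) (Finset.univ \ {u, v, w, z}) a b →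
      Rinc ({u, v} : Finset (Fin n)) a b := by
    intro a b h; unfold Rbet at h; unfold Rinc; tauto
  have iBe' : ∀ a b, Rbet ({u, v} : Finset (Fin n)) {w, z} a b →
      Rinc ({w, z} : Finset (Fin n)) a b := by
    intro a b h; unfold Rbet at h; unfold Rinc; tauto
  have it'e' : ∀ a b, Rbet ({w, z} : Finset (Fin n)) (Finset.univ \ {w, z, u, v}) a b →
      Rinc ({w, z} : Finset (Fin n)) a b := by
    intro a b h; unfold Rbet at h; unfold Rinc; tauto
  have sSt : ∀ x ∈ Ω, ∀ y ∈ Ω, labT u v w z x = labT u v w z y →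
      (SwB u v w z x ↔ SwB u v w z y) := by
    intro x _ y _ e
    unfold labT at e
    rw [slotLab_eq_iff] at e
    exact SwB_congr (e u w (out_B hD u w (Or.inl rfl) (Or.inl rfl)))
      (e u z (out_B hD u z (Or.inl rfl) (Or.inr rfl)))
      (e v w (out_B hD v w (Or.inr rfl) (Or.inl rfl)))
      (e v z (out_B hD v z (Or.inr rfl) (Or.inr rfl)))
  have sSt' : ∀ x ∈ Ω, ∀ y ∈ Ω, labT w z u v x = labT w z u v y →
      (SwB u v w z x ↔ SwB u v w z y) := by
    intro x _ y _ e
    unfold labT at e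
    rw [slotLab_eq_iff] at e
    exact SwB_congr (e u w (out_B' hD u w (Or.inl rfl) (Or.inl rfl)))
      (e u z (out_B' hD u z (Or.inl rfl) (Or.inr rfl)))
      (e v w (out_B' hD v w (Or.inr rfl) (Or.inl rfl)))
      (e v z (out_B' hD v z (Or.inr rfl) (Or.inr rfl)))
  have key := pair_abstract Ω (labP u v) (labP w z) (labB u v w z) (labT u v w z)
    (labT w z u v) (SwB u v w z)
    (fun x _ y _ e => slotLab_mono iBe e)
    (fun x _ y _ e => slotLab_mono ite e)
    (fun x _ y _ e => slotLab_mono iBe' e)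
    (fun x _ y _ e => slotLab_mono it'e' e)
    (fun f x hx => hS _ _ (Rbet_symm _ _) (Rbet_symm _ _) (disj_Bt hD) f x hx)
    (fun f x hx => hS _ _ (Rbet_symm _ _) (Rbet_symm _ _) (disj_Bt' hD) f x hx)
    (fun f x hx => hS _ _ (Rbet_symm _ _) (Rbet_symm _ _) (disj_tt' hD) f x hx)
    (fun f x hx => hS _ _ (Rinc_symm _) (Rbet_symm _ _) (disj_et' hD) f x hx)
    (fun f x hx => hS _ _ (Rinc_symm _) (Rbet_symm _ _) (disj_e't hD) f x hx)
    sSt sSt' (hX u v w z hD) f
  obtain ⟨hBa, hBb⟩ := hB u v w z hD f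
  obtain ⟨_, hBb'⟩ := hB w z u v hD' f
  have c1 : ∑ x ∈ Ω.filter (SwB u v w z),
      (cexpL Ω (labB u v w z) (cexpL Ω (labT u v w z) f) x - cexpL Ω (labP u v) f x) ^ 2
      = charge Ω u v w z f := by
    unfold charge OmB
    apply Finset.sum_congr rfl
    intro x hx
    rw [hBb x (Finset.mem_filter.mp hx).1 (Finset.mem_filter.mp hx).2]
    rfl
  have c2 : ∑ x ∈ Ω.filter (SwB u v w z),
      (cexpL Ω (labB u v w z) (cexpL Ω (labT w z u v) f) x - cexpL Ω (labP w z) f x) ^ 2
      = charge Ω w z u v f := by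
    unfold charge
    rw [OmB_swap]
    unfold OmB
    apply Finset.sum_congr rfl
    intro x hx
    have := hBb' x (Finset.mem_filter.mp hx).1
      ((SwB_swap u v w z x).2 (Finset.mem_filter.mp hx).2)
    rw [labB_swap, OmB_swap] at this
    rw [this]
    rfl
  rw [c1, c2, hBa] at key
  unfold crossE
  linarith

theorem crossInst_of_parts (hO : OddStmt n d) (hC : ColEvenStmt n d) (u v w z : Fin n)
    (hD : D4 u v w z) : CrossInst d u v w z := by
  have hD' : D4 w z u v := by
    obtain ⟨huv, huw, huz, hvw, hvz, hwz⟩ := hD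
    exact ⟨hwz, huw.symm, hvw.symm, huz.symm, hvz.symm, huv⟩
  intro ψ h1 h2
  refine Vale.Agent.Helper18.KTV.cross_abstract (gOmega n d) (labP u v) (labP w z)
    (labT u v w z) (labT w z u v) (OddB u v w z) (ColEven u v w z) (ColEven w z u v)
    (SwB u v w z) (fun x _ => cover4 u v w z x) (hO u v w z hD).1 ?_ (hO u v w z hD).2
    (hC u v w z hD) (hC w z u v hD') ψ h1 h2
  intro x hx y hy e
  have := (hO w z u v hD').1 x hx y hy e
  unfold OddB at this ⊢
  rwa [yB_swap u v w z x, yB_swap u v w z y] at this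

/-- **M3.**  The inequality for two disjoint pairs, from the three concrete facts. -/
theorem pairStmt_of_parts (hO : OddStmt n d) (hC : ColEvenStmt n d) (hB : BlockStmt n d) :
    PairStmt n d :=
  pair_of_parts d (KTV.G23.slotCommStmt d) hB (crossInst_of_parts d hO hC)

end Asm

end KTVG
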