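import Vale.Agent.Helper13.SwitchDefs
import Vale.Agent.Helper16.KTV.Defs

/-!
# Switch chain on general graphs (problem P335): shared definitions

State space: the simple graphs on `Fin n` with degree vector `d`, as a `Finset` of
`SimpleGraph (Fin n)`.  A *slot* is an unordered pair of vertices; a slot set is given by
a (symmetric) relation `R : Fin n → Fin n → Prop`.  The heat bath on `R` is the
conditional expectation `KTV.cexpL Ω (slotLab R)` given the graph off `R`.
-/

namespace KTVG

open Finset Vale.Agent.Helper13.Switch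
open Classical

variable {n : ℕ}

/-- the simple graphs on `Fin n` with degree vector `d` -/
noncomputable def gOmega (n : ℕ) (d : Fin n → ℕ) : Finset (SimpleGraph (Fin n)) :=
  Finset.univ.filter fun G => ∀ i, G.degree i = d i

/-- label of `G` off the slot set `R`: the adjacency relation restricted to the slots
outside `R`.  Two graphs carry the same label iff they agree on every slot outside `R`. -/
def slotLab (R : Fin n → Fin n → Prop) (G : SimpleGraph (Fin n)) : Fin n → Fin n → Prop :=
  fun x y => ¬ R x y ∧ G.Adj x y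

/-- the slots with at least one end in `S` -/
def Rinc (S : Finset (Fin n)) : Fin n → Fin n → Prop := fun x y => x ∈ S ∨ y ∈ S

/-- the slots with one end in `S` and the other in `T` -/
def Rbet (S T : Finset (Fin n)) : Fin n → Fin n → Prop :=
  fun x y => (x ∈ S ∧ y ∈ T) ∨ (x ∈ T ∧ y ∈ S)

/-- label the graph with the vertices of `S` removed (`G - S`) -/
def labOffV (S : Finset (Fin n)) : SimpleGraph (Fin n) → Fin n → Fin n → Prop :=
  slotLab (Rinc S)

/-- pair label: the graph `G - u - v` -/
def labP (u v : Fin n) : SimpleGraph (Fin n) → Fin n → Fin n → Prop := labOffV {u, v}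

/-- label off the four slots `uw, uz, vw, vz` between `{u,v}` and `{w,z}` -/
def labB (u v w z : Fin n) : SimpleGraph (Fin n) → Fin n → Fin n → Prop :=
  slotLab (Rbet {u, v} {w, z})

/-- label off the slots between `{u,v}` and the vertices outside `{u,v,w,z}` -/
def labT (u v w z : Fin n) : SimpleGraph (Fin n) → Fin n → Fin n → Prop :=
  slotLab (Rbet {u, v} (Finset.univ \ {u, v, w, z}))

/-- `1` if `x`, `y` are adjacent in `G`, else `0` -/
noncomputable def adjN (G : SimpleGraph (Fin n)) (x y : Fin n) : ℕ := if G.Adj x y then 1 else 0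

/-- number of edges of `G` between `{u,v}` and `{w,z}` -/
noncomputable def yB (u v w z : Fin n) (G : SimpleGraph (Fin n)) : ℕ :=
  adjN G u w + adjN G u z + adjN G v w + adjN G v z

/-- the four slots between `{u,v}` and `{w,z}` carry an alternating 4-cycle of `G`:
either `uw, vz` are edges and `uz, vw` are not, or the other way round.  (These are the
graphs where the switch on this 4-cycle is possible.) -/
def SwB (u v w z : Fin n) (G : SimpleGraph (Fin n)) : Prop :=
  (G.Adj u w ∧ G.Adj v z ∧ ¬ G.Adj u z ∧ ¬ G.Adj v w) ∨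
    (G.Adj u z ∧ G.Adj v w ∧ ¬ G.Adj u w ∧ ¬ G.Adj v z)

/-- `G'` arises from `G` by the switch on the alternating 4-cycle carried by the slots
between `{u,v}` and `{w,z}` -/
def SwBrel (u v w z : Fin n) (G G' : SimpleGraph (Fin n)) : Prop :=
  (Allowed G u w z v ∧ G' = switchGraph G u w z v) ∨
    (Allowed G u z w v ∧ G' = switchGraph G u z w v)

/-- the energy of the switches on the 4-cycle between `{u,v}` and `{w,z}`:
the sum over `G ∈ Ω` with `SwB u v w z G` of `(f G - f (switched G))^2` -/
noncomputable def swD (Ω : Finset (SimpleGraph (Fin n))) (u v w z : Fin n)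
    (f : SimpleGraph (Fin n) → ℝ) : ℝ :=
  KTV.dirichlet Ω (SwBrel u v w z) f

/-- the graphs of `Ω` with an alternating 4-cycle on the slots between `{u,v}`, `{w,z}` -/
noncomputable def OmB (Ω : Finset (SimpleGraph (Fin n))) (u v w z : Fin n) :
    Finset (SimpleGraph (Fin n)) := Ω.filter (SwB u v w z)

/-- the charge of the pair `{w,z}` on the pair `{u,v}`: over the graphs `G` with
an alternating 4-cycle between `{u,v}` and `{w,z}`, the sum of the squared differences
between the mean of `f` over the part of the `{u,v}`-fibre of `G` with such a 4-cycle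
and the mean of `f` over the whole `{u,v}`-fibre of `G` -/
noncomputable def charge (Ω : Finset (SimpleGraph (Fin n))) (u v w z : Fin n)
    (f : SimpleGraph (Fin n) → ℝ) : ℝ :=
  ∑ G ∈ OmB Ω u v w z,
    (KTV.cexpL (OmB Ω u v w z) (labP u v) f G - KTV.cexpL Ω (labP u v) f G) ^ 2

/-- the pair energy `‖Q_{uv} f‖²`: sum over `Ω` of `(f - E[f | G - u - v])^2` -/
noncomputable def pairE (Ω : Finset (SimpleGraph (Fin n))) (u v : Fin n)
    (f : SimpleGraph (Fin n) → ℝ) : ℝ :=
  ∑ G ∈ Ω, (f G - KTV.cexpL Ω (labP u v) f G) ^ 2

/-- the cross term `⟨Q_{uv} f, Q_{wz} f⟩` -/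
noncomputable def crossE (Ω : Finset (SimpleGraph (Fin n))) (u v w z : Fin n)
    (f : SimpleGraph (Fin n) → ℝ) : ℝ :=
  ∑ G ∈ Ω, (f G - KTV.cexpL Ω (labP u v) f G) * (f G - KTV.cexpL Ω (labP w z) f G)

end KTVG
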