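import Vale.Agent.Helper16.KTVG.Top
import Vale.Agent.Helper23.KTVG.Odd
import Vale.Agent.Helper27.KTVGBlock

/-!
# Switch chain on general graphs (problem P335): the spectral gap statement

For every degree vector `d`, the switch graph on the realizations of `d` satisfies the
Poincaré inequality with constant `4` for the ordered switch energy (spectral gap `≥ 2`).
-/

namespace KTVG

/-- the switch graph on the simple graphs with degree vector `d` has spectral gap at least 2 -/
theorem gapStmt (n : ℕ) (d : Fin n → ℕ) : GapStmt n d :=
  gapStmt_of_parts d (KTV.G23.oddStmt n d) (blockStmt n d)

end KTVG
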