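import Vale.Agent.Helper16.KTVG.Plan
import Vale.Agent.Helper16.KTV.Bridge
import Vale.Agent.Helper18.KTV.PairCore

/-!
# Two disjoint pairs: abstract assembly

From the five-term expansion (`Helper18.KTV.pair_core`) and the cross lemma for
functions invariant under the two outer heat baths, the inequality for two pairs in
terms of conditional expectations.
-/

namespace KTVG

open Finset Matrix KTV

section Abs

set_option linter.unusedSectionVars false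

variable {X : Type*} [DecidableEq X]

theorem cexpL_sub' {Λ : Type*} [DecidableEq Λ] (Ω : Finset X) (lab : X → Λ) (g h : X → ℝ)
    (x : X) : cexpL Ω lab (fun y => g y - h y) x = cexpL Ω lab g x - cexpL Ω lab h x := by
  rw [cexpL_eq, cexpL_eq, cexpL_eq, Finset.sum_sub_distrib, sub_div]

/-- multiplication by the indicator of a union of classes commutes with `cexpL` -/
theorem cexpL_ite {Λ : Type*} [DecidableEq Λ] (Ω : Finset X) (lab : X → Λ) (P : X → Prop)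
    [DecidablePred P] (hP : ∀ x ∈ Ω, ∀ y ∈ Ω, lab x = lab y → (P x ↔ P y)) (h : X → ℝ)
    {x : X} (hx : x ∈ Ω) :
    cexpL Ω lab (fun y => if P y then h y else 0) x = if P x then cexpL Ω lab h x else 0 := by
  rw [cexpL_eq]
  by_cases hpx : P x
  · rw [if_pos hpx, cexpL_eq]
    congr 1
    apply Finset.sum_congr rfl
    intro y hy
    have := (hP y (Finset.mem_filter.mp hy).1 x hx (Finset.mem_filter.mp hy).2).2 hpx
    rw [if_pos this]
  · rw [if_neg hpx]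
    have : ∀ y ∈ Ω.filter (fun y => lab y = lab x), (if P y then h y else 0) = 0 := by
      intro y hy
      have := (hP y (Finset.mem_filter.mp hy).1 x hx (Finset.mem_filter.mp hy).2)
      rw [if_neg (fun hc => hpx (this.1 hc))]
    rw [Finset.sum_congr rfl this]
    simp

/-- Jensen on a union of classes -/
theorem sum_filter_cexpL_sq_le {Λ : Type*} [DecidableEq Λ] (Ω : Finset X) (lab : X → Λ)
    (P : X → Prop) [DecidablePred P]
    (hP : ∀ x ∈ Ω, ∀ y ∈ Ω, lab x = lab y → (P x ↔ P y)) (h : X → ℝ) :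
    ∑ x ∈ Ω.filter P, (cexpL Ω lab h x) ^ 2 ≤ ∑ x ∈ Ω.filter P, (h x) ^ 2 := by
  have key := sum_sub_cexpL_sq Ω lab (fun y => if P y then h y else 0)
  have h0 : 0 ≤ ∑ x ∈ Ω, ((fun y => if P y then h y else 0) x
      - cexpL Ω lab (fun y => if P y then h y else 0) x) ^ 2 :=
    Finset.sum_nonneg (fun _ _ => sq_nonneg _)
  rw [key] at h0
  have e1 : ∑ x ∈ Ω, ((fun y => if P y then h y else 0) x) ^ 2 = ∑ x ∈ Ω.filter P, (h x) ^ 2 := by
    rw [Finset.sum_filter]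
    apply Finset.sum_congr rfl
    intro x _
    by_cases hp : P x <;> simp [hp]
  have e2 : ∑ x ∈ Ω, (cexpL Ω lab (fun y => if P y then h y else 0) x) ^ 2
      = ∑ x ∈ Ω.filter P, (cexpL Ω lab h x) ^ 2 := by
    rw [Finset.sum_filter]
    apply Finset.sum_congr rfl
    intro x hx
    rw [cexpL_ite Ω lab P hP h hx]
    by_cases hp : P x <;> simp [hp]
  rw [e1, e2] at h0
  linarith

theorem PM_tower {Λ Λ' : Type*} [DecidableEq Λ] [DecidableEq Λ'] (Ω : Finset X) (lab : X → Λ)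
    (lab' : X → Λ') (hfine : ∀ x ∈ Ω, ∀ y ∈ Ω, lab x = lab y → lab' x = lab' y) :
    PM Ω lab' * PM Ω lab = PM Ω lab' := by
  apply Matrix.mulVec_injective
  funext v
  rw [← Matrix.mulVec_mulVec, ← vec_ext0 Ω v, PM_mulVec, PM_mulVec, PM_mulVec]
  funext x
  exact cexpL_tower Ω lab lab' hfine _ x.2

theorem one_sub_PM_mulVec {Λ : Type*} [DecidableEq Λ] (Ω : Finset X) (lab : X → Λ)
    (f : X → ℝ) : (1 - PM Ω lab) *ᵥ vec Ω f = vec Ω (fun x => f x - cexpL Ω lab f x) := by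
  rw [Matrix.sub_mulVec, Matrix.one_mulVec, PM_mulVec]
  rfl

/-- Abstract form of the inequality for two disjoint pairs. -/
theorem pair_abstract {Λ1 Λ2 Λ3 Λ4 Λ5 : Type*} [DecidableEq Λ1] [DecidableEq Λ2]
    [DecidableEq Λ3] [DecidableEq Λ4] [DecidableEq Λ5] (Ω : Finset X)
    (le : X → Λ1) (le' : X → Λ2) (lB : X → Λ3) (lt : X → Λ4) (lt' : X → Λ5)
    (SB : X → Prop) [DecidablePred SB]
    (nBe : ∀ x ∈ Ω, ∀ y ∈ Ω, lB x = lB y → le x = le y)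
    (nte : ∀ x ∈ Ω, ∀ y ∈ Ω, lt x = lt y → le x = le y)
    (nBe' : ∀ x ∈ Ω, ∀ y ∈ Ω, lB x = lB y → le' x = le' y)
    (nt'e' : ∀ x ∈ Ω, ∀ y ∈ Ω, lt' x = lt' y → le' x = le' y)
    (cBt : ∀ (f : X → ℝ) (x : X), x ∈ Ω →
      cexpL Ω lB (cexpL Ω lt f) x = cexpL Ω lt (cexpL Ω lB f) x)
    (cBt' : ∀ (f : X → ℝ) (x : X), x ∈ Ω →
      cexpL Ω lB (cexpL Ω lt' f) x = cexpL Ω lt' (cexpL Ω lB f) x)
    (ctt' : ∀ (f : X → ℝ) (x : X), x ∈ Ω →
      cexpL Ω lt (cexpL Ω lt' f) x = cexpL Ω lt' (cexpL Ω lt f) x)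
    (cet' : ∀ (f : X → ℝ) (x : X), x ∈ Ω →
      cexpL Ω le (cexpL Ω lt' f) x = cexpL Ω lt' (cexpL Ω le f) x)
    (ce't : ∀ (f : X → ℝ) (x : X), x ∈ Ω →
      cexpL Ω le' (cexpL Ω lt f) x = cexpL Ω lt (cexpL Ω le' f) x)
    (sSt : ∀ x ∈ Ω, ∀ y ∈ Ω, lt x = lt y → (SB x ↔ SB y))
    (sSt' : ∀ x ∈ Ω, ∀ y ∈ Ω, lt' x = lt' y → (SB x ↔ SB y))
    (hcross : ∀ ψ : X → ℝ, (∀ x ∈ Ω, cexpL Ω lt ψ x = ψ x) →
      (∀ x ∈ Ω, cexpL Ω lt' ψ x = ψ x) →
      -(1 / 2 : ℝ) * (∑ x ∈ Ω.filter SB, (ψ x - cexpL Ω le ψ x) ^ 2)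
          - (1 / 2 : ℝ) * (∑ x ∈ Ω.filter SB, (ψ x - cexpL Ω le' ψ x) ^ 2)
        ≤ ∑ x ∈ Ω, (ψ x - cexpL Ω le ψ x) * (ψ x - cexpL Ω le' ψ x))
    (f : X → ℝ) :
    ∑ x ∈ Ω, (f x - cexpL Ω lB f x) ^ 2
        - (1 / 2 : ℝ) * (∑ x ∈ Ω.filter SB,
            (cexpL Ω lB (cexpL Ω lt f) x - cexpL Ω le f x) ^ 2)
        - (1 / 2 : ℝ) * (∑ x ∈ Ω.filter SB,
            (cexpL Ω lB (cexpL Ω lt' f) x - cexpL Ω le' f x) ^ 2)
      ≤ ∑ x ∈ Ω, (f x - cexpL Ω le f x) * (f x - cexpL Ω le' f x) := by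
  set Fe := PM Ω le with hFe
  set Fe' := PM Ω le' with hFe'
  set FB := PM Ω lB with hFB
  set Ft := PM Ω lt with hFt
  set Ft' := PM Ω lt' with hFt'
  have sFe : Fe.transpose = Fe := PM_transpose Ω le
  have sFe' : Fe'.transpose = Fe' := PM_transpose Ω le'
  have sFB : FB.transpose = FB := PM_transpose Ω lB
  have sFt : Ft.transpose = Ft := PM_transpose Ω lt
  have sFt' : Ft'.transpose = Ft' := PM_transpose Ω lt'
  have iFe : Fe * Fe = Fe := PM_idem Ω le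
  have iFe' : Fe' * Fe' = Fe' := PM_idem Ω le'
  have iFB : FB * FB = FB := PM_idem Ω lB
  have iFt : Ft * Ft = Ft := PM_idem Ω lt
  have iFt' : Ft' * Ft' = Ft' := PM_idem Ω lt'
  have hBt : FB * Ft = Ft * FB := PM_comm Ω lB lt cBt
  have hBt' : FB * Ft' = Ft' * FB := PM_comm Ω lB lt' cBt'
  have htt' : Ft * Ft' = Ft' * Ft := PM_comm Ω lt lt' ctt'
  have het' : Fe * Ft' = Ft' * Fe := PM_comm Ω le lt' cet'
  have he't : Fe' * Ft = Ft * Fe' := PM_comm Ω le' lt ce't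
  have heB : Fe * FB = Fe := PM_tower Ω lB le nBe
  have het : Fe * Ft = Fe := PM_tower Ω lt le nte
  have he'B : Fe' * FB = Fe' := PM_tower Ω lB le' nBe'
  have he't' : Fe' * Ft' = Fe' := PM_tower Ω lt' le' nt'e'
  have hBe : FB * Fe = Fe := by
    have := congrArg Matrix.transpose heB
    rwa [Matrix.transpose_mul, sFe, sFB] at this
  have hte : Ft * Fe = Fe := by
    have := congrArg Matrix.transpose het
    rwa [Matrix.transpose_mul, sFe, sFt] at this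
  have hBe' : FB * Fe' = Fe' := by
    have := congrArg Matrix.transpose he'B
    rwa [Matrix.transpose_mul, sFe', sFB] at this
  have ht'e' : Ft' * Fe' = Fe' := by
    have := congrArg Matrix.transpose he't'
    rwa [Matrix.transpose_mul, sFe', sFt'] at this
  have pc := Vale.Agent.Helper18.KTV.pair_core Fe Fe' FB Ft Ft' sFe sFe' sFB sFt sFt'
    iFe iFe' iFB iFt iFt' hBt hBt' htt' heB het he'B he't' het' he't (vec Ω f)
  -- matrix identities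
  have E1 : Fe * (FB * Ft * Ft') = Fe * Ft' := by
    rw [← mul_assoc, ← mul_assoc, heB, het]
  have E2 : (FB * Ft * Ft') * Fe = Fe * Ft' := by
    rw [mul_assoc (FB * Ft) Ft' Fe, ← het', ← mul_assoc, mul_assoc FB Ft Fe, hte, hBe]
  have E3 : Fe' * (FB * Ft * Ft') = Ft * Fe' := by
    rw [← mul_assoc, ← mul_assoc, he'B, he't, mul_assoc, he't']
  have E4 : (FB * Ft * Ft') * Fe' = Ft * Fe' := by
    rw [mul_assoc (FB * Ft) Ft' Fe', ht'e', hBt, mul_assoc, hBe']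
  have E5 : Ft * (FB * Ft * Ft') = FB * Ft * Ft' := by
    rw [← mul_assoc, ← mul_assoc, ← hBt, mul_assoc FB Ft Ft, iFt]
  have E6 : Ft' * (FB * Ft * Ft') = FB * Ft * Ft' := by
    rw [← mul_assoc, ← mul_assoc, ← hBt', mul_assoc FB Ft' Ft, ← htt', ← mul_assoc,
      mul_assoc (FB * Ft) Ft' Ft', iFt']
  have E7 : (1 - Fe) * (FB * Ft * Ft') = Ft' * (FB * Ft - Fe) := by
    rw [sub_mul, one_mul, E1, mul_sub, ← mul_assoc, ← hBt', mul_assoc FB Ft' Ft, ← htt',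
      ← mul_assoc, het']
  have E8 : (1 - Fe') * (FB * Ft * Ft') = Ft * (FB * Ft' - Fe') := by
    rw [sub_mul, one_mul, E3, mul_sub, ← mul_assoc, ← hBt]
  have C1 : (FB * Ft * Ft') * (1 - Fe) = (1 - Fe) * (FB * Ft * Ft') := by
    rw [mul_sub, sub_mul, mul_one, one_mul, E2, E1]
  have C2 : (FB * Ft * Ft') * (1 - Fe') = (1 - Fe') * (FB * Ft * Ft') := by
    rw [mul_sub, sub_mul, mul_one, one_mul, E4, E3]
  -- the invariant function
  set ψ : X → ℝ := cexpL Ω lB (cexpL Ω lt (cexpL Ω lt' f)) with hψ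
  have hEv : (FB * Ft * Ft') *ᵥ vec Ω f = vec Ω ψ := by
    rw [← Matrix.mulVec_mulVec, ← Matrix.mulVec_mulVec, hFt', PM_mulVec, hFt, PM_mulVec, hFB,
      PM_mulVec]
  have h1 : ∀ x ∈ Ω, cexpL Ω lt ψ x = ψ x := by
    intro x hx
    have : Ft *ᵥ vec Ω ψ = vec Ω ψ := by
      rw [← hEv, Matrix.mulVec_mulVec, E5]
    rw [hFt, PM_mulVec] at this
    exact congrFun this ⟨x, hx⟩
  have h2 : ∀ x ∈ Ω, cexpL Ω lt' ψ x = ψ x := by
    intro x hx
    have : Ft' *ᵥ vec Ω ψ = vec Ω ψ := by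
      rw [← hEv, Matrix.mulVec_mulVec, E6]
    rw [hFt', PM_mulVec] at this
    exact congrFun this ⟨x, hx⟩
  have hc := hcross ψ h1 h2
  -- the two residuals
  set hE : X → ℝ := fun y => cexpL Ω lB (cexpL Ω lt f) y - cexpL Ω le f y with hhE
  set hE' : X → ℝ := fun y => cexpL Ω lB (cexpL Ω lt' f) y - cexpL Ω le' f y with hhE'
  have r1 : ∀ x ∈ Ω, ψ x - cexpL Ω le ψ x = cexpL Ω lt' hE x := by
    intro x hx
    have e : (1 - Fe) *ᵥ vec Ω ψ = Ft' *ᵥ vec Ω hE := by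
      have e0 : (FB * Ft - Fe) *ᵥ vec Ω f = vec Ω hE := by
        rw [Matrix.sub_mulVec, ← Matrix.mulVec_mulVec, hFt, PM_mulVec, hFB, PM_mulVec, hFe,
          PM_mulVec]
        rfl
      rw [← hEv, Matrix.mulVec_mulVec, E7, ← Matrix.mulVec_mulVec, e0]
    rw [hFe, one_sub_PM_mulVec, hFt', PM_mulVec] at e
    exact congrFun e ⟨x, hx⟩
  have r2 : ∀ x ∈ Ω, ψ x - cexpL Ω le' ψ x = cexpL Ω lt hE' x := by
    intro x hx
    have e : (1 - Fe') *ᵥ vec Ω ψ = Ft *ᵥ vec Ω hE' := by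
      have e0 : (FB * Ft' - Fe') *ᵥ vec Ω f = vec Ω hE' := by
        rw [Matrix.sub_mulVec, ← Matrix.mulVec_mulVec, hFt', PM_mulVec, hFB, PM_mulVec, hFe',
          PM_mulVec]
        rfl
      rw [← hEv, Matrix.mulVec_mulVec, E8, ← Matrix.mulVec_mulVec, e0]
    rw [hFe', one_sub_PM_mulVec, hFt, PM_mulVec] at e
    exact congrFun e ⟨x, hx⟩
  have b1 : ∑ x ∈ Ω.filter SB, (ψ x - cexpL Ω le ψ x) ^ 2
      ≤ ∑ x ∈ Ω.filter SB, (hE x) ^ 2 := by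
    have : ∑ x ∈ Ω.filter SB, (ψ x - cexpL Ω le ψ x) ^ 2
        = ∑ x ∈ Ω.filter SB, (cexpL Ω lt' hE x) ^ 2 :=
      Finset.sum_congr rfl fun x hx => by rw [r1 x (Finset.mem_filter.mp hx).1]
    rw [this]
    exact sum_filter_cexpL_sq_le Ω lt' SB sSt' hE
  have b2 : ∑ x ∈ Ω.filter SB, (ψ x - cexpL Ω le' ψ x) ^ 2
      ≤ ∑ x ∈ Ω.filter SB, (hE' x) ^ 2 := by
    have : ∑ x ∈ Ω.filter SB, (ψ x - cexpL Ω le' ψ x) ^ 2
        = ∑ x ∈ Ω.filter SB, (cexpL Ω lt hE' x) ^ 2 :=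
      Finset.sum_congr rfl fun x hx => by rw [r2 x (Finset.mem_filter.mp hx).1]
    rw [this]
    exact sum_filter_cexpL_sq_le Ω lt SB sSt hE'
  -- translate pair_core
  have t1 : vec Ω f ⬝ᵥ ((1 - FB) *ᵥ vec Ω f) = ∑ x ∈ Ω, (f x - cexpL Ω lB f x) ^ 2 := by
    rw [hFB, one_sub_PM_mulVec, vec_dot, sum_sub_cexpL_sq, ← sum_mul_cexpL,
      ← Finset.sum_sub_distrib]
    exact Finset.sum_congr rfl fun x _ => by ring
  have t3 : ((1 - Fe) *ᵥ vec Ω f) ⬝ᵥ ((1 - Fe') *ᵥ vec Ω f)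
      = ∑ x ∈ Ω, (f x - cexpL Ω le f x) * (f x - cexpL Ω le' f x) := by
    rw [hFe, hFe', one_sub_PM_mulVec, one_sub_PM_mulVec, vec_dot]
  have t2 : ((FB * Ft * Ft') *ᵥ ((1 - Fe) *ᵥ vec Ω f)) ⬝ᵥ
        ((FB * Ft * Ft') *ᵥ ((1 - Fe') *ᵥ vec Ω f))
      = ∑ x ∈ Ω, (ψ x - cexpL Ω le ψ x) * (ψ x - cexpL Ω le' ψ x) := by
    have a1 : (FB * Ft * Ft') *ᵥ ((1 - Fe) *ᵥ vec Ω f) = (1 - Fe) *ᵥ vec Ω ψ := by
      rw [Matrix.mulVec_mulVec, C1, ← Matrix.mulVec_mulVec, hEv]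
    have a2 : (FB * Ft * Ft') *ᵥ ((1 - Fe') *ᵥ vec Ω f) = (1 - Fe') *ᵥ vec Ω ψ := by
      rw [Matrix.mulVec_mulVec, C2, ← Matrix.mulVec_mulVec, hEv]
    rw [a1, a2, hFe, hFe', one_sub_PM_mulVec, one_sub_PM_mulVec, vec_dot]
  rw [t1, t2, t3] at pc
  linarith

end Abs

end KTVG
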