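import Vale.Agent.Helper16.KTVG.PairAsm
import Vale.Agent.Helper19.KTVG.ColEven
import Vale.Agent.Helper12.KTVJ.Stmt
import Vale.Agent.Helper4.KTVG.Final
import Vale.Agent.Helper1.KTVG.Ker
import Vale.Agent.Helper8.KTV.GraphTriStmt

/-!
# Switch chain on general graphs (problem P335): top-level assembly

`GapStmt n d` from the two remaining concrete statements `OddStmt n d` and `BlockStmt n d`;
all other modules are closed.
-/

namespace KTVG

variable {n : ℕ}

/-- the spectral gap statement, from the two remaining concrete facts -/
theorem gapStmt_of_parts (d : Fin n → ℕ) (hO : OddStmt n d) (hB : BlockStmt n d) :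
    GapStmt n d :=
  gap_of_modules (KTV.H8G.triStmt n d) (pairStmt_of_parts d hO (colEvenStmt n d) hB)
    (johnsonStmt_h12 n d) (Vale.Agent.Helper1.KTVGKer.ker n d) (count_stmt n d)

end KTVG
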